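import Vale.Agent.Lib.P309.K.Defs

/-! # P309 K: from Euclidean error to angular error -/

open scoped RealInnerProductSpace

namespace Vale.Agent.Lib.P309.K

/-- Let `v = vec h z`, `r2 = ‖v - s‖ ^ 2 < sin ε ^ 2 ≤ 1`.  Then `v ≠ 0` (otherwise `r2 = 1`), so
`kout = ‖v‖⁻¹ • v` (`dif_neg`) and `c := ⟪kout, s⟫ = ⟪v, s⟫ / ‖v‖`.
`r2 = ‖v‖ ^ 2 - 2 ⟪v, s⟫ + 1 = (‖v‖ - c) ^ 2 + 1 - c ^ 2 ≥ 1 - c ^ 2` (`norm_sub_sq_real`), so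
`c ^ 2 > 1 - sin ε ^ 2 = cos ε ^ 2`; `⟪v, s⟫ = (‖v‖ ^ 2 + 1 - r2) / 2 > 0` so `c > 0`;
`cos ε ≥ 0`; hence `cos ε ≤ c` (`abs_le_abs` / `pow_le_pow_left` / `nlinarith`), and
`arccos c ≤ arccos (cos ε) = ε` (`Real.arccos_le_arccos`, `Real.arccos_cos`). -/
theorem arccos_kout_le {h : ℝ} {d G : ℕ} (e0 : Sph d) (z : St d G) (s : E d) (hs : ‖s‖ = 1)
    {ε : ℝ} (h0 : 0 < ε) (h1 : ε ≤ Real.pi / 2) (hz : ‖vec h z - s‖ ^ 2 < Real.sin ε ^ 2) :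
    Real.arccos ⟪(kout h e0 z : E d), s⟫ ≤ ε := by
  have hsin : Real.sin ε ^ 2 ≤ 1 := Real.sin_sq_le_one ε
  have hsc : Real.sin ε ^ 2 + Real.cos ε ^ 2 = 1 := Real.sin_sq_add_cos_sq ε
  have hcos : 0 ≤ Real.cos ε :=
    Real.cos_nonneg_of_neg_pi_div_two_le_of_le (by linarith [Real.pi_pos]) h1
  have hv : vec h z ≠ 0 := by
    intro h00
    rw [h00, zero_sub, norm_neg, hs] at hz
    linarith
  set v := vec h z with hvdef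
  have hn : 0 < ‖v‖ := norm_pos_iff.2 hv
  have hk : (kout h e0 z : E d) = ‖v‖⁻¹ • v := by
    unfold kout
    rw [dif_neg hv]
  have hexp : ‖v - s‖ ^ 2 = ‖v‖ ^ 2 - 2 * ⟪v, s⟫ + 1 := by
    rw [norm_sub_sq_real, hs]; ring
  rw [hk, real_inner_smul_left]
  set c := ‖v‖⁻¹ * ⟪v, s⟫ with hc
  have hinner : ⟪v, s⟫ = ‖v‖ * c := by
    rw [hc]; field_simp
  have hpos : 0 < ⟪v, s⟫ := by nlinarith [sq_nonneg ‖v‖]
  have hcpos : 0 < c := mul_pos (inv_pos.2 hn) hpos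
  have hsq : Real.cos ε ^ 2 < c ^ 2 := by
    have : ‖v - s‖ ^ 2 = (‖v‖ - c) ^ 2 + 1 - c ^ 2 := by
      rw [hexp, hinner]; ring
    nlinarith [sq_nonneg (‖v‖ - c)]
  have hle : Real.cos ε ≤ c := by
    by_contra hlt
    push Not at hlt
    nlinarith
  calc Real.arccos c ≤ Real.arccos (Real.cos ε) := Real.arccos_le_arccos hle
    _ = ε := Real.arccos_cos h0.le (by linarith [Real.pi_pos])

end Vale.Agent.Lib.P309.K
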