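import Mathlib

/-! # P309 K: the choice of the parameters (pure real arithmetic) -/

namespace Vale.Agent.Lib.P309.K

theorem geom_aux (D : ℝ) (hD : 1 ≤ D) (T : ℕ) :
    ∑ k ∈ Finset.range T, (1 - 1 / (2 * D)) ^ k = (1 - (1 - 1 / (2 * D)) ^ T) * (2 * D) := by
  have hD0 : D ≠ 0 := by positivity
  induction T with
  | zero => simp
  | succ n ih =>
    rw [Finset.sum_range_succ, ih, pow_succ]
    field_simp
    ring

theorem pow_aux (D : ℝ) (hD : 1 ≤ D) (δ : ℝ) (h0 : 0 < δ) (T : ℕ)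
    (hT : 2 * D * Real.log (24 / δ ^ 2) ≤ T) : (1 - 1 / (2 * D)) ^ T ≤ δ ^ 2 / 24 := by
  have hD0 : 0 < D := by linarith
  have ha0 : 0 ≤ 1 - 1 / (2 * D) := by
    have : 1 / (2 * D) ≤ 1 / 2 := by
      apply one_div_le_one_div_of_le (by norm_num) (by linarith)
    linarith
  have h1 : 1 - 1 / (2 * D) ≤ Real.exp (-(1 / (2 * D))) := Real.one_sub_le_exp_neg _
  have h2 : (1 - 1 / (2 * D)) ^ T ≤ Real.exp (-(1 / (2 * D))) ^ T := pow_le_pow_left₀ ha0 h1 T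
  have h3 : Real.exp (-(1 / (2 * D))) ^ T = Real.exp ((T : ℝ) * (-(1 / (2 * D)))) := by
    rw [← Real.exp_nat_mul]
  have h4 : (T : ℝ) * (-(1 / (2 * D))) ≤ -Real.log (24 / δ ^ 2) := by
    have : Real.log (24 / δ ^ 2) ≤ (T : ℝ) * (1 / (2 * D)) := by
      rw [mul_one_div, le_div_iff₀ (by positivity)]
      linarith
    linarith
  have h5 : Real.exp ((T : ℝ) * (-(1 / (2 * D)))) ≤ Real.exp (-Real.log (24 / δ ^ 2)) :=
    Real.exp_le_exp.mpr h4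
  have h6 : Real.exp (-Real.log (24 / δ ^ 2)) = δ ^ 2 / 24 := by
    rw [Real.exp_neg, Real.exp_log (by positivity)]
    field_simp
  rw [h3] at h2
  linarith

/-- `a = 1 - 1/(2d) ∈ [1/2, 1)`.  `∑_{k<T} a^k ≤ 1/(1-a) = 2d` (`geom_sum_eq` or
`geom_sum_lt`-type lemmas, or induction: `∑_{k<T} a^k = (1 - a^T) * (2d)`).
`(δ/(3 d √d))/2 * √d = δ/(6d)`, so the second term is at most `3d * δ^2/(36 d^2) * 2d = δ^2/6`.
`a^T ≤ exp(-T/(2d))` (`Real.one_sub_le_exp_neg` / `Real.add_one_le_exp`, `Real.exp_nat_mul`), and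
`T/(2d) ≥ log (24/δ^2)` gives `a^T ≤ δ^2/24`, so the first term is at most `δ^2/6`. -/
theorem scalar_bound (d : ℕ) (hd : 1 ≤ d) (δ : ℝ) (h0 : 0 < δ) (h1 : δ ≤ 1) (T : ℕ)
    (hT : 2 * (d : ℝ) * Real.log (24 / δ ^ 2) ≤ T) (E0 : ℝ) (hE0 : E0 ≤ 4) :
    ((1 - 1 / (2 * (d : ℝ))) ^ T * E0 +
      (1 + 2 * (d : ℝ)) * (δ / (3 * d * Real.sqrt d) / 2 * Real.sqrt d) ^ 2 *
        ∑ k ∈ Finset.range T, (1 - 1 / (2 * (d : ℝ))) ^ k) / δ ^ 2 ≤ 1 / 3 := by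
  have hD : (1 : ℝ) ≤ d := by exact_mod_cast hd
  have hD0 : (0 : ℝ) < d := by linarith
  have hs : 0 < Real.sqrt d := Real.sqrt_pos.mpr hD0
  have e1 : δ / (3 * d * Real.sqrt d) / 2 * Real.sqrt d = δ / (6 * d) := by
    field_simp
    ring
  rw [e1, geom_aux d hD T]
  have hp := pow_aux d hD δ h0 T hT
  have ha0 : 0 ≤ 1 - 1 / (2 * (d : ℝ)) := by
    have : 1 / (2 * (d : ℝ)) ≤ 1 / 2 := by
      apply one_div_le_one_div_of_le (by norm_num) (by linarith)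
    linarith
  have hp0 : 0 ≤ (1 - 1 / (2 * (d : ℝ))) ^ T := pow_nonneg ha0 T
  generalize (1 - 1 / (2 * (d : ℝ))) ^ T = A at hp hp0 ⊢
  have t1 : A * E0 ≤ δ ^ 2 / 6 := by
    have : A * E0 ≤ A * 4 := mul_le_mul_of_nonneg_left hE0 hp0
    linarith
  have t2 : (1 + 2 * (d : ℝ)) * (δ / (6 * d)) ^ 2 * ((1 - A) * (2 * d)) ≤ δ ^ 2 / 6 := by
    have e2 : (1 + 2 * (d : ℝ)) * (δ / (6 * d)) ^ 2 * ((1 - A) * (2 * d))
        = (δ ^ 2 / 6) * ((1 - A) * ((1 + 2 * (d : ℝ)) / (3 * d))) := by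
      field_simp
      ring
    rw [e2]
    have h3 : (1 + 2 * (d : ℝ)) / (3 * d) ≤ 1 := by
      rw [div_le_one (by positivity)]; linarith
    have h30 : 0 ≤ (1 + 2 * (d : ℝ)) / (3 * d) := by positivity
    have h4 : (1 - A) * ((1 + 2 * (d : ℝ)) / (3 * d)) ≤ 1 := by
      have : (1 - A) * ((1 + 2 * (d : ℝ)) / (3 * d)) ≤ 1 * ((1 + 2 * (d : ℝ)) / (3 * d)) :=
        mul_le_mul_of_nonneg_right (by linarith) h30
      linarith
    have h5 : 0 ≤ δ ^ 2 / 6 := by positivity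
    calc (δ ^ 2 / 6) * ((1 - A) * ((1 + 2 * (d : ℝ)) / (3 * d))) ≤ (δ ^ 2 / 6) * 1 :=
          mul_le_mul_of_nonneg_left h4 h5
      _ = δ ^ 2 / 6 := by ring
  rw [div_le_iff₀ (by positivity)]
  linarith

/-- `Nat.le_ceil` and `field_simp` -/
theorem grid_ok (d : ℕ) (hd : 1 ≤ d) (δ : ℝ) (h0 : 0 < δ) :
    2 ≤ ((⌈6 * (d : ℝ) * Real.sqrt d / δ⌉₊ : ℕ) : ℝ) * (δ / (3 * d * Real.sqrt d)) := by
  have hD : (1 : ℝ) ≤ d := by exact_mod_cast hd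
  have hD0 : (0 : ℝ) < d := by linarith
  have hs : 0 < Real.sqrt d := Real.sqrt_pos.mpr hD0
  have h1 : 6 * (d : ℝ) * Real.sqrt d / δ ≤ ((⌈6 * (d : ℝ) * Real.sqrt d / δ⌉₊ : ℕ) : ℝ) :=
    Nat.le_ceil _
  have h2 : 0 < δ / (3 * d * Real.sqrt d) := by positivity
  have h3 : (6 * (d : ℝ) * Real.sqrt d / δ) * (δ / (3 * d * Real.sqrt d)) = 2 := by
    field_simp
    norm_num
  calc (2 : ℝ) = (6 * (d : ℝ) * Real.sqrt d / δ) * (δ / (3 * d * Real.sqrt d)) := h3.symm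
    _ ≤ _ := mul_le_mul_of_nonneg_right h1 h2.le

end Vale.Agent.Lib.P309.K
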