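import Vale.Agent.Lib.P309.K.Defs

/-! # P309 K: the normalised surface measure is a probability measure -/

open MeasureTheory

namespace Vale.Agent.Lib.P309.K

/-- `Measure.toSphere_apply_univ : μ.toSphere univ = dim E * μ (ball 0 1)`, which is neither `0`
(`finrank_euclideanSpace`, `measure_ball_pos`) nor `⊤` (`measure_ball_lt_top`);
`ENNReal.inv_mul_cancel`. -/
theorem isProbabilityMeasure_unif {d : ℕ} (hd : 1 ≤ d) : IsProbabilityMeasure (unif d) := by
  constructor
  have h0 : (volume : Measure (E d)).toSphere Set.univ ≠ 0 := by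
    rw [Measure.measure_univ_ne_zero]
    intro h
    rw [Measure.toSphere_eq_zero_iff_finrank] at h
    simp at h
    omega
  have h1 : (volume : Measure (E d)).toSphere Set.univ ≠ ⊤ := measure_ne_top _ _
  rw [unif, Measure.smul_apply, smul_eq_mul]
  exact ENNReal.inv_mul_cancel h0 h1

end Vale.Agent.Lib.P309.K
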