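import Vale.Agent.Lib.P309.K.Induct
import Vale.Agent.Lib.P309.K.Angle
import Vale.Agent.Lib.P309.K.Unif
import Vale.Agent.Lib.P309.K.Scalar

/-!
# P309 K: the quantised Kaczmarz learner succeeds (explicit form)
-/

open MeasureTheory ProbabilityTheory
open scoped ENNReal RealInnerProductSpace

namespace Vale.Agent.Lib.P309.K

/-- the grid size -/
noncomputable def gridG (d : ℕ) (ε : ℝ) : ℕ := ⌈6 * (d : ℝ) * Real.sqrt d / Real.sin ε⌉₊

/-- the horizon -/
noncomputable def horT (d : ℕ) (ε : ℝ) : ℕ := ⌈2 * (d : ℝ) * Real.log (24 / Real.sin ε ^ 2)⌉₊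

/-- the grid spacing -/
noncomputable def gridH (d : ℕ) (ε : ℝ) : ℝ := Real.sin ε / (3 * d * Real.sqrt d)

/-- the success event -/
def succSet (d : ℕ) (ε : ℝ) (e0 : Sph d) : Set (Sph d × (Fin (horT d ε) → E d)) :=
  {ω | Real.arccos ⟪(kout (gridH d ε) e0 (runF (kstep (gridH d ε)) (ω.1 : E d) (horT d ε)
    (kinit (gridH d ε) d (gridG d ε)) ω.2) : E d), (ω.1 : E d)⟫ ≤ ε}

theorem measurableSet_succSet (d : ℕ) (ε : ℝ) (e0 : Sph d) : MeasurableSet (succSet d ε e0) := by
  have hrun : Measurable (fun ω : Sph d × (Fin (horT d ε) → E d) =>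
      runF (kstep (gridH d ε)) (ω.1 : E d) (horT d ε) (kinit (gridH d ε) d (gridG d ε)) ω.2) :=
    (measurable_runF (kstep (gridH d ε)) (measurable_kstep (gridH d ε)) (horT d ε)
      (kinit (gridH d ε) d (gridG d ε))).comp
      ((measurable_subtype_coe.comp measurable_fst).prodMk measurable_snd)
  apply measurableSet_le _ measurable_const
  apply Real.measurable_arccos.comp
  apply Measurable.inner
  · exact measurable_subtype_coe.comp
      ((Measurable.of_discrete (f := kout (gridH d ε) e0)).comp hrun)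
  · exact measurable_subtype_coe.comp measurable_fst

theorem two_thirds_le_succSet (d : ℕ) (hd : 1 ≤ d) (ε : ℝ) (h0 : 0 < ε) (h1 : ε ≤ Real.pi / 2)
    (e0 : Sph d) :
    (2 / 3 : ℝ≥0∞) ≤ ((unif d).prod
      (Measure.pi fun _ : Fin (horT d ε) => stdGaussian (E d))) (succSet d ε e0) := by
  have hdr : (1 : ℝ) ≤ d := by exact_mod_cast hd
  have hS := measurableSet_succSet d ε e0
  unfold succSet at hS ⊢
  unfold gridG horT gridH at hS ⊢
  set δ : ℝ := Real.sin ε with hδ
  have hδ0 : 0 < δ := Real.sin_pos_of_pos_of_lt_pi h0 (by linarith [Real.pi_pos])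
  have hδ1 : δ ≤ 1 := Real.sin_le_one ε
  set G : ℕ := ⌈6 * (d : ℝ) * Real.sqrt d / δ⌉₊ with hGdef
  set T : ℕ := ⌈2 * (d : ℝ) * Real.log (24 / δ ^ 2)⌉₊ with hTdef
  set h : ℝ := δ / (3 * d * Real.sqrt d) with hh
  have hsq : 0 < Real.sqrt d := Real.sqrt_pos.2 (by linarith)
  have hh0 : 0 < h := by rw [hh]; positivity
  have hG : 2 ≤ (G : ℝ) * h := grid_ok d hd δ hδ0
  have hT : 2 * (d : ℝ) * Real.log (24 / δ ^ 2) ≤ T := Nat.le_ceil _
  have : IsProbabilityMeasure (unif d) := isProbabilityMeasure_unif hd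
  rw [Measure.prod_apply hS]
  have key : ∀ s : Sph d, (2 / 3 : ℝ≥0∞) ≤ (Measure.pi fun _ : Fin T => stdGaussian (E d))
      (Prod.mk s ⁻¹' {ω : Sph d × (Fin T → E d) |
        Real.arccos ⟪(kout h e0 (runF (kstep h) (ω.1 : E d) T (kinit h d G) ω.2) : E d),
          (ω.1 : E d)⟫ ≤ ε}) := by
    intro s
    have hs : ‖(s : E d)‖ = 1 := mem_sphere_zero_iff_norm.1 s.2
    set Bad : Set (Fin T → E d) :=
      {x | δ ^ 2 ≤ ‖vec h (runF (kstep h) (s : E d) T (kinit h d G) x) - s‖ ^ 2} with hBad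
    have hBadm : MeasurableSet Bad := by
      have hm : Measurable (fun x : Fin T → E d => runF (kstep h) (s : E d) T (kinit h d G) x) :=
        (measurable_runF (kstep h) (measurable_kstep h) T (kinit h d G)).comp
          (measurable_const.prodMk measurable_id)
      exact hm (MeasurableSet.of_discrete (s := {m : St d G | δ ^ 2 ≤ ‖vec h m - s‖ ^ 2}))
    have hinit : ‖vec h (kinit h d G) - s‖ ^ 2 ≤ 4 := by
      have h2 := norm_vec_round_sub_le (G := G) hh0 hG (0 : E d) (s : E d) hs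
      have h3 : vec h (fun i => rnd h G ((0 : E d) i)) = vec h (kinit h d G) := rfl
      rw [h3, zero_sub, norm_neg, hs] at h2
      have h4 : h / 2 * Real.sqrt d ≤ 1 := by
        have : h / 2 * Real.sqrt d = δ / (6 * d) := by
          rw [hh]; field_simp; ring
        rw [this, div_le_one (by positivity)]
        linarith
      have h5 : 0 ≤ ‖vec h (kinit h d G) - s‖ := norm_nonneg _
      nlinarith
    have hbad : (Measure.pi fun _ : Fin T => stdGaussian (E d)) Bad ≤ 1 / 3 := by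
      refine (bad_le hd hh0 hG (s : E d) hs (δ ^ 2) (by positivity) T (kinit h d G)).trans ?_
      have := scalar_bound d hd δ hδ0 hδ1 T hT _ hinit
      calc ENNReal.ofReal _ ≤ ENNReal.ofReal (1 / 3) := ENNReal.ofReal_le_ofReal this
        _ = 1 / 3 := by
          rw [ENNReal.ofReal_div_of_pos (by norm_num)]; simp
    have hsub : Badᶜ ⊆ Prod.mk s ⁻¹' {ω : Sph d × (Fin T → E d) |
        Real.arccos ⟪(kout h e0 (runF (kstep h) (ω.1 : E d) T (kinit h d G) ω.2) : E d),
          (ω.1 : E d)⟫ ≤ ε} := by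
      intro x hx
      have hx' : ‖vec h (runF (kstep h) (s : E d) T (kinit h d G) x) - s‖ ^ 2 < δ ^ 2 := by
        simpa [hBad] using hx
      exact arccos_kout_le e0 _ (s : E d) hs h0 h1 hx'
    calc (2 / 3 : ℝ≥0∞) ≤ 1 - (Measure.pi fun _ : Fin T => stdGaussian (E d)) Bad := by
          have h6 : (1 : ℝ≥0∞) - 1 / 3 ≤ 1 - (Measure.pi fun _ : Fin T => stdGaussian (E d)) Bad :=
            tsub_le_tsub_left hbad 1
          refine le_trans (le_of_eq ?_) h6
          rw [eq_comm, ENNReal.sub_eq_of_eq_add (by simp)]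
          rw [ENNReal.div_add_div_same]
          norm_num
          rw [ENNReal.div_self (by norm_num) (by norm_num)]
      _ = (Measure.pi fun _ : Fin T => stdGaussian (E d)) Badᶜ := (prob_compl_eq_one_sub hBadm).symm
      _ ≤ _ := measure_mono hsub
  calc (2 / 3 : ℝ≥0∞) = ∫⁻ _s : Sph d, (2 / 3 : ℝ≥0∞) ∂(unif d) := by simp
    _ ≤ _ := lintegral_mono key

end Vale.Agent.Lib.P309.K
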