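import Mathlib

/-!
# P309: a bounded-memory (quantised) Kaczmarz learner: definitions
-/

open MeasureTheory ProbabilityTheory
open scoped ENNReal RealInnerProductSpace

namespace Vale.Agent.Lib.P309.K

/-- `ℝ^d` with the Euclidean norm. -/
abbrev E (d : ℕ) := EuclideanSpace ℝ (Fin d)

/-- The unit sphere `S^{d-1}`. -/
abbrev Sph (d : ℕ) := Metric.sphere (0 : E d) 1

/-- The uniform probability measure on `S^{d-1}`: the surface measure `volume.toSphere` of Mathlib
divided by its total mass. -/
noncomputable def unif (d : ℕ) : Measure (Sph d) :=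
  ((volume : Measure (E d)).toSphere Set.univ)⁻¹ • (volume : Measure (E d)).toSphere

/-- One pass over the stream: the state reached from the state `z` after reading, in this order,
the `T` pairs `(x 0, ⟪x 0, s⟫), ..., (x (T-1), ⟪x (T-1), s⟫)`; only the state is kept between two
pairs, and it is updated by the rule `step`. -/
noncomputable def runF {State : Type} {d : ℕ} (step : State → E d → ℝ → State) (s : E d) :
    (T : ℕ) → State → (Fin T → E d) → State
  | 0, z, _ => z
  | T + 1, z, x => runF step s T (step z (x 0) ⟪x 0, s⟫) (fun i => x i.succ)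

/-! ### the learner -/

/-- the states: one of `G + 1` grid values for each coordinate -/
abbrev St (d G : ℕ) := Fin d → Fin (G + 1)

/-- the grid value number `j`: `j h - 1` -/
noncomputable def val (h : ℝ) {G : ℕ} (j : Fin (G + 1)) : ℝ := (j : ℕ) * h - 1

/-- the vector stored in a state -/
noncomputable def vec (h : ℝ) {d G : ℕ} (z : St d G) : E d := WithLp.toLp 2 fun i => val h (z i)

/-- rounding of a real number to the grid (after clamping it to `[-1, 1]`) -/
noncomputable def rnd (h : ℝ) (G : ℕ) (u : ℝ) : Fin (G + 1) :=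
  ⟨min G ⌊(max (-1) (min 1 u) + 1) / h + 1 / 2⌋₊, Nat.lt_succ_of_le (min_le_left _ _)⟩

/-- the Kaczmarz update of the stored vector -/
noncomputable def kupd {d : ℕ} (v ξ : E d) (y : ℝ) : E d := v + ((y - ⟪ξ, v⟫) / ‖ξ‖ ^ 2) • ξ

/-- the transition rule: Kaczmarz update, then coordinatewise rounding -/
noncomputable def kstep (h : ℝ) {d G : ℕ} (z : St d G) (ξ : E d) (y : ℝ) : St d G :=
  fun i => rnd h G (kupd (vec h z) ξ y i)

/-- the initial state: the grid point next to `0` -/
noncomputable def kinit (h : ℝ) (d G : ℕ) : St d G := fun _ => rnd h G 0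

/-- the output rule: the stored vector, normalised (a fixed point `e0` if it is `0`) -/
noncomputable def kout (h : ℝ) {d G : ℕ} (e0 : Sph d) (z : St d G) : Sph d :=
  if hz : vec h z = 0 then e0
  else ⟨‖vec h z‖⁻¹ • vec h z, by
    rw [mem_sphere_zero_iff_norm, norm_smul, norm_inv, norm_norm,
      inv_mul_cancel₀ (norm_ne_zero_iff.2 hz)]⟩

end Vale.Agent.Lib.P309.K
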