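import Vale.Agent.Lib.P309.K.MeasRun

/-! # P309 K: conditioning on the first row -/

open MeasureTheory ProbabilityTheory
open scoped RealInnerProductSpace ENNReal

namespace Vale.Agent.Lib.P309.K

/-- `measurePreserving_piFinSuccAbove (fun _ => stdGaussian (E d)) 0` : the map
`e = MeasurableEquiv.piFinSuccAbove (fun _ => E d) 0`, `e x = (x 0, fun i => x i.succ)`
(`Fin.zero_succAbove`), sends the product measure on `Fin (T+1) → E d` to
`(stdGaussian (E d)).prod (Measure.pi ..)`.  The set on the left is `e ⁻¹' A'` with
`A' = {q | runF step s T (step z q.1 ⟪q.1, s⟫) q.2 ∈ A}`, which is measurable (as in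
`measurable_runF`: `measurable_from_prod_countable_right`, every subset of `State` is measurable).
Then `MeasurePreserving.measure_preimage` (or `_equiv`) and `Measure.prod_apply`. -/
theorem measure_runF_succ {State : Type} [MeasurableSpace State] [Countable State]
    [MeasurableSingletonClass State] {d : ℕ} (step : State → E d → ℝ → State)
    (hstep : ∀ z, Measurable (fun p : E d × ℝ => step z p.1 p.2)) (s : E d) (T : ℕ) (z : State)
    (A : Set State) :
    (Measure.pi fun _ : Fin (T + 1) => stdGaussian (E d)) {x | runF step s (T + 1) z x ∈ A} =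
      ∫⁻ ξ, (Measure.pi fun _ : Fin T => stdGaussian (E d))
        {x | runF step s T (step z ξ ⟪ξ, s⟫) x ∈ A} ∂(stdGaussian (E d)) := by
  have hmp := measurePreserving_piFinSuccAbove (fun _ : Fin (T + 1) => stdGaussian (E d)) 0
  have hA : MeasurableSet A := (Set.to_countable A).measurableSet
  have hκ : Measurable (fun q : E d × (Fin T → E d) => step z q.1 ⟪q.1, s⟫) := by
    have h1 : Measurable (fun q : E d × (Fin T → E d) => (q.1, ⟪q.1, s⟫)) :=
      measurable_fst.prodMk (measurable_fst.inner measurable_const)
    exact (hstep z).comp h1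
  have hg : Measurable (fun r : State × (E d × (Fin T → E d)) => runF step s T r.1 r.2.2) := by
    apply measurable_from_prod_countable_right
    intro m
    have h2 : Measurable (fun q : E d × (Fin T → E d) => (s, q.2)) :=
      measurable_const.prodMk measurable_snd
    exact (measurable_runF step hstep T m).comp h2
  have hF : Measurable (fun q : E d × (Fin T → E d) =>
      runF step s T (step z q.1 ⟪q.1, s⟫) q.2) :=
    hg.comp (hκ.prodMk measurable_id)
  have hA' : MeasurableSet {q : E d × (Fin T → E d) |
      runF step s T (step z q.1 ⟪q.1, s⟫) q.2 ∈ A} := hF hA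
  have hset : {x : Fin (T + 1) → E d | runF step s (T + 1) z x ∈ A}
      = (MeasurableEquiv.piFinSuccAbove (fun _ : Fin (T + 1) => E d) 0) ⁻¹'
        {q : E d × (Fin T → E d) | runF step s T (step z q.1 ⟪q.1, s⟫) q.2 ∈ A} := by
    ext x
    simp only [Set.mem_preimage, Set.mem_ofPred_eq]
    have h3 : (MeasurableEquiv.piFinSuccAbove (fun _ : Fin (T + 1) => E d) 0) x
        = (x 0, fun i : Fin T => x i.succ) := by
      refine Prod.ext rfl ?_
      funext i
      simp [MeasurableEquiv.piFinSuccAbove, Fin.insertNthEquiv]
      rfl
    rw [h3]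
    rfl
  rw [hset, hmp.measure_preimage hA'.nullMeasurableSet, Measure.prod_apply hA']
  rfl

end Vale.Agent.Lib.P309.K
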