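import Vale.Agent.Lib.P309.K.Defs

/-! # P309 K: the mean of the squared cosine between a Gaussian vector and a fixed vector -/

open MeasureTheory ProbabilityTheory
open scoped RealInnerProductSpace

namespace Vale.Agent.Lib.P309.K

theorem measurable_inner_sq_div {d : ℕ} (e : E d) :
    Measurable (fun ξ : E d => ⟪ξ, e⟫ ^ 2 / ‖ξ‖ ^ 2) := by
  have h1 : Measurable (fun ξ : E d => ⟪ξ, e⟫) := by fun_prop
  have h2 : Measurable (fun ξ : E d => ‖ξ‖) := measurable_norm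
  exact (h1.pow_const 2).div (h2.pow_const 2)

theorem inner_sq_div_le {d : ℕ} (e ξ : E d) : ‖⟪ξ, e⟫ ^ 2 / ‖ξ‖ ^ 2‖ ≤ ‖e‖ ^ 2 := by
  rw [Real.norm_eq_abs, abs_of_nonneg (by positivity)]
  by_cases hξ : ξ = 0
  · subst hξ; simp
  · have hpos : 0 < ‖ξ‖ ^ 2 := by
      have := norm_pos_iff.2 hξ
      positivity
    rw [div_le_iff₀ hpos]
    have h1 : |⟪ξ, e⟫| ≤ ‖ξ‖ * ‖e‖ := abs_real_inner_le_norm ξ e
    calc ⟪ξ, e⟫ ^ 2 = |⟪ξ, e⟫| ^ 2 := (sq_abs _).symm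
      _ ≤ (‖ξ‖ * ‖e‖) ^ 2 := pow_le_pow_left₀ (abs_nonneg _) h1 2
      _ = ‖e‖ ^ 2 * ‖ξ‖ ^ 2 := by ring

/-- measurable and bounded by `‖e‖ ^ 2` (Cauchy-Schwarz) -/
theorem integrable_inner_sq_div {d : ℕ} (e : E d) :
    Integrable (fun ξ : E d => ⟪ξ, e⟫ ^ 2 / ‖ξ‖ ^ 2) (stdGaussian (E d)) :=
  Integrable.of_bound (measurable_inner_sq_div e).aestronglyMeasurable (‖e‖ ^ 2)
    (Filter.Eventually.of_forall (inner_sq_div_le e))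

/-- rotation invariance: `stdGaussian_map` for the linear isometry `R`, `integral_map`,
`R.inner_map_map`, `R.norm_map` -/
theorem integral_inner_sq_div_map {d : ℕ} (R : E d ≃ₗᵢ[ℝ] E d) (e : E d) :
    ∫ ξ, ⟪ξ, R e⟫ ^ 2 / ‖ξ‖ ^ 2 ∂(stdGaussian (E d)) =
      ∫ ξ, ⟪ξ, e⟫ ^ 2 / ‖ξ‖ ^ 2 ∂(stdGaussian (E d)) := by
  have hmap : (stdGaussian (E d)).map R = stdGaussian (E d) := stdGaussian_map R
  have hR : Measurable (R : E d → E d) := R.continuous.measurable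
  calc ∫ ξ, ⟪ξ, R e⟫ ^ 2 / ‖ξ‖ ^ 2 ∂(stdGaussian (E d))
      = ∫ ξ, ⟪ξ, R e⟫ ^ 2 / ‖ξ‖ ^ 2 ∂((stdGaussian (E d)).map R) := by rw [hmap]
    _ = ∫ ξ, ⟪R ξ, R e⟫ ^ 2 / ‖R ξ‖ ^ 2 ∂(stdGaussian (E d)) :=
        integral_map hR.aemeasurable (measurable_inner_sq_div (R e)).aestronglyMeasurable
    _ = ∫ ξ, ⟪ξ, e⟫ ^ 2 / ‖ξ‖ ^ 2 ∂(stdGaussian (E d)) := by
        simp only [R.inner_map_map, R.norm_map]

end Vale.Agent.Lib.P309.K
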