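import Vale.Agent.Lib.P309.K.Defs

/-! # P309 K: the standard Gaussian does not charge the origin -/

open MeasureTheory ProbabilityTheory
open scoped RealInnerProductSpace

namespace Vale.Agent.Lib.P309.K

/-- the origin is a null set.  E.g. `{0} ⊆ {ξ | ξ i = 0}` and the law of a coordinate is
`gaussianReal 0 1` (no atoms): `stdGaussian_eq_map_pi_orthonormalBasis (EuclideanSpace.basisFun ..)`
or `IsGaussian.map_eq_gaussianReal` with `variance_dual_stdGaussian`. -/
theorem stdGaussian_singleton_zero {d : ℕ} (hd : 1 ≤ d) : stdGaussian (E d) {0} = 0 := by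
  let i : Fin d := ⟨0, hd⟩
  have hmp : MeasurePreserving (fun x : E d => x i) (stdGaussian (E d)) (gaussianReal 0 1) := by
    have h := measurePreserving_eval_multivariateGaussian (μ := (0 : E d))
      (S := (1 : Matrix (Fin d) (Fin d) ℝ)) Matrix.PosSemidef.one (i := i)
    simpa using h
  have hna : NullSingletonClass (gaussianReal 0 1) := nullSingletonClass_gaussianReal one_ne_zero
  have hsub : ({0} : Set (E d)) ⊆ (fun x : E d => x i) ⁻¹' {0} := by
    intro x hx
    rw [Set.mem_singleton_iff] at hx
    simp [hx]
  have h0 : stdGaussian (E d) ((fun x : E d => x i) ⁻¹' {0}) = 0 := by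
    rw [hmp.measure_preimage (measurableSet_singleton 0).nullMeasurableSet]
    exact measure_singleton 0
  exact measure_mono_null hsub h0

end Vale.Agent.Lib.P309.K
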