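import Vale.Agent.Lib.P309.K.Gauss
import Vale.Agent.Lib.P309.K.GaussZero

/-! # P309 K: `E ⟪ξ, e⟫ ^ 2 / ‖ξ‖ ^ 2 = ‖e‖ ^ 2 / d` -/

open MeasureTheory ProbabilityTheory
open scoped RealInnerProductSpace

namespace Vale.Agent.Lib.P309.K

/-- Write `q e` for the integral.  (1) `q u = q v` for unit vectors: the reflection
`Submodule.reflection (ℝ ∙ (u - v))ᗮ` maps `u` to `v` (`Submodule.reflection_sub` or
`reflection_sub`), use `integral_inner_sq_div_map`.  (2) for the orthonormal basis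
`b = EuclideanSpace.basisFun (Fin d) ℝ`: `∑ i, ⟪ξ, b i⟫ ^ 2 = ‖ξ‖ ^ 2`
(`OrthonormalBasis.sum_sq_inner_right` or `EuclideanSpace.norm_sq_eq`), so
`∑ i, q (b i) = ∫ 1 = 1` (`integral_finset_sum` with `integrable_inner_sq_div`; the integrand is
`1` off the null set `{0}`: `stdGaussian_singleton_zero`).  (3) hence `d * q u = 1`.  (4) `e = 0` is
trivial, otherwise `e = ‖e‖ • u` and `q e = ‖e‖ ^ 2 * q u` (`inner_smul_right`, `integral_const_mul`). -/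
theorem integral_inner_sq_div_norm_sq {d : ℕ} (hd : 1 ≤ d) (e : E d) :
    ∫ ξ, ⟪ξ, e⟫ ^ 2 / ‖ξ‖ ^ 2 ∂(stdGaussian (E d)) = ‖e‖ ^ 2 / d := by
  have hrot : ∀ u v : E d, ‖u‖ = ‖v‖ →
      ∫ ξ, ⟪ξ, v⟫ ^ 2 / ‖ξ‖ ^ 2 ∂(stdGaussian (E d)) =
        ∫ ξ, ⟪ξ, u⟫ ^ 2 / ‖ξ‖ ^ 2 ∂(stdGaussian (E d)) := by
    intro u v huv
    have h := integral_inner_sq_div_map ((ℝ ∙ (u - v))ᗮ).reflection u
    rwa [Submodule.reflection_sub huv] at h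
  have hin : ∀ (i : Fin d) (ξ : E d), ⟪ξ, EuclideanSpace.single i (1 : ℝ)⟫ = ξ i := by
    intro i ξ
    rw [EuclideanSpace.inner_single_right]
    simp
  have hb : ∀ i : Fin d, ∫ ξ, ⟪ξ, e⟫ ^ 2 / ‖ξ‖ ^ 2 ∂(stdGaussian (E d)) =
      ‖e‖ ^ 2 * ∫ ξ : E d, (ξ i) ^ 2 / ‖ξ‖ ^ 2 ∂(stdGaussian (E d)) := by
    intro i
    have hn : ‖‖e‖ • (EuclideanSpace.single i (1 : ℝ) : E d)‖ = ‖e‖ := by
      rw [norm_smul, PiLp.norm_single, norm_norm, norm_one, mul_one]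
    rw [hrot _ e hn, ← integral_const_mul]
    congr 1
    ext ξ
    rw [inner_smul_right, hin]
    ring
  have hint : ∀ i : Fin d,
      Integrable (fun ξ : E d => (ξ i) ^ 2 / ‖ξ‖ ^ 2) (stdGaussian (E d)) := by
    intro i
    have h := integrable_inner_sq_div (EuclideanSpace.single i (1 : ℝ) : E d)
    simpa only [hin] using h
  have hae : ∀ᵐ ξ : E d ∂(stdGaussian (E d)), ∑ i : Fin d, (ξ i) ^ 2 / ‖ξ‖ ^ 2 = 1 := by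
    have h0 : ∀ᵐ ξ : E d ∂(stdGaussian (E d)), ξ ∈ ({0}ᶜ : Set (E d)) :=
      compl_mem_ae_iff.mpr (stdGaussian_singleton_zero hd)
    filter_upwards [h0] with ξ hξ
    have hξ0 : ξ ≠ 0 := hξ
    have hpos : ‖ξ‖ ^ 2 ≠ 0 := pow_ne_zero 2 (norm_ne_zero_iff.mpr hξ0)
    rw [← Finset.sum_div, ← EuclideanSpace.real_norm_sq_eq, div_self hpos]
  have hsum : ∑ i : Fin d, ∫ ξ : E d, (ξ i) ^ 2 / ‖ξ‖ ^ 2 ∂(stdGaussian (E d)) = 1 := by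
    rw [← integral_finsetSum _ (fun i _ => hint i), integral_congr_ae hae]
    simp
  have hd0 : (d : ℝ) ≠ 0 := by
    have : 0 < d := hd
    positivity
  have key : (d : ℝ) * ∫ ξ, ⟪ξ, e⟫ ^ 2 / ‖ξ‖ ^ 2 ∂(stdGaussian (E d)) = ‖e‖ ^ 2 := by
    calc (d : ℝ) * ∫ ξ, ⟪ξ, e⟫ ^ 2 / ‖ξ‖ ^ 2 ∂(stdGaussian (E d))
        = ∑ _i : Fin d, ∫ ξ, ⟪ξ, e⟫ ^ 2 / ‖ξ‖ ^ 2 ∂(stdGaussian (E d)) := by
          rw [Finset.sum_const, Finset.card_univ, Fintype.card_fin, nsmul_eq_mul]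
      _ = ∑ i : Fin d, ‖e‖ ^ 2 * ∫ ξ : E d, (ξ i) ^ 2 / ‖ξ‖ ^ 2 ∂(stdGaussian (E d)) :=
          Finset.sum_congr rfl (fun i _ => hb i)
      _ = ‖e‖ ^ 2 := by rw [← Finset.mul_sum, hsum, mul_one]
  rw [eq_div_iff hd0, mul_comm]
  exact key

end Vale.Agent.Lib.P309.K
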