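import Vale.Agent.Lib.P309.K.Defs

/-! # P309 K: measurability of the rules and of the run -/

open MeasureTheory ProbabilityTheory
open scoped RealInnerProductSpace

namespace Vale.Agent.Lib.P309.K

/-- `rnd h G = (fun k : ℕ => ⟨min G k, _⟩) ∘ (fun u => ⌊..⌋₊)`; the first map is measurable because
`ℕ` is discrete (`measurable_from_nat` / `Measurable.of_discrete`), the second by
`Nat.measurable_floor.comp` and `fun_prop` / `Measurable.max`, `Measurable.min`. -/
theorem measurable_rnd (h : ℝ) (G : ℕ) : Measurable (rnd h G) := by
  have h1 : Measurable (fun k : ℕ => (⟨min G k, Nat.lt_succ_of_le (min_le_left _ _)⟩ : Fin (G + 1))) :=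
    Measurable.of_discrete
  have h2 : Measurable (fun u : ℝ => ⌊(max (-1) (min 1 u) + 1) / h + 1 / 2⌋₊) := by
    refine Nat.measurable_floor.comp ?_
    have h3 : Measurable (fun u : ℝ => max (-1 : ℝ) (min 1 u)) :=
      measurable_const.max (measurable_const.min measurable_id)
    exact ((h3.add_const 1).div_const h).add_const (1 / 2)
  exact h1.comp h2

/-- `measurable_pi_iff`, `measurable_rnd`, and the coordinate `i` of `kupd (vec h z) ξ y` is a
measurable function of `(ξ, y)` (`fun_prop`; `Measurable.inner`, `Measurable.norm`,
`EuclideanSpace` coordinates: `(EuclideanSpace.proj i).measurable` or `measurable_pi_apply`). -/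
theorem measurable_kstep (h : ℝ) {d G : ℕ} (z : St d G) :
    Measurable (fun p : E d × ℝ => kstep h z p.1 p.2) := by
  rw [measurable_pi_iff]
  intro i
  refine (measurable_rnd h G).comp ?_
  have hk : Measurable (fun p : E d × ℝ => kupd (vec h z) p.1 p.2) := by
    unfold kupd
    have h1 : Measurable (fun p : E d × ℝ => ⟪p.1, vec h z⟫) :=
      measurable_fst.inner measurable_const
    have h2 : Measurable (fun p : E d × ℝ => ‖p.1‖ ^ 2) := measurable_fst.norm.pow_const 2
    exact measurable_const.add (((measurable_snd.sub h1).div h2).smul measurable_fst)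
  exact (EuclideanSpace.proj i : E d →L[ℝ] ℝ).measurable.comp hk

end Vale.Agent.Lib.P309.K
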