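import Vale.Agent.Lib.P309.K.OneStep
import Vale.Agent.Lib.P309.K.Fubini
import Vale.Agent.Lib.P309.K.Meas

/-! # P309 K: the probability of a large error after `T` steps -/

open MeasureTheory ProbabilityTheory
open scoped RealInnerProductSpace ENNReal

namespace Vale.Agent.Lib.P309.K

theorem bad_le {h : ℝ} {d G : ℕ} (hd : 1 ≤ d) (hh : 0 < h) (hG : 2 ≤ G * h) (s : E d)
    (hs : ‖s‖ = 1) (θ : ℝ) (hθ : 0 < θ) (T : ℕ) (z : St d G) :
    (Measure.pi fun _ : Fin T => stdGaussian (E d))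
        {x | θ ≤ ‖vec h (runF (kstep h) s T z x) - s‖ ^ 2} ≤
      ENNReal.ofReal (((1 - 1 / (2 * (d : ℝ))) ^ T * ‖vec h z - s‖ ^ 2 +
        (1 + 2 * (d : ℝ)) * (h / 2 * Real.sqrt d) ^ 2 *
          ∑ k ∈ Finset.range T, (1 - 1 / (2 * (d : ℝ))) ^ k) / θ) := by
  have hdr : (1 : ℝ) ≤ d := by exact_mod_cast hd
  set a : ℝ := 1 - 1 / (2 * (d : ℝ)) with ha
  set c : ℝ := (1 + 2 * (d : ℝ)) * (h / 2 * Real.sqrt d) ^ 2 with hc
  have ha0 : 0 ≤ a := by
    rw [ha]
    have : 1 / (2 * (d : ℝ)) ≤ 1 := by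
      rw [div_le_one (by positivity)]; linarith
    linarith
  have hc0 : 0 ≤ c := by rw [hc]; positivity
  induction T generalizing z with
  | zero =>
    simp only [runF, pow_zero, one_mul, Finset.range_zero, Finset.sum_empty, mul_zero, add_zero]
    by_cases hz : θ ≤ ‖vec h z - s‖ ^ 2
    · calc (Measure.pi fun _ : Fin 0 => stdGaussian (E d)) {_x | θ ≤ ‖vec h z - s‖ ^ 2} ≤ 1 :=
            prob_le_one
        _ = ENNReal.ofReal 1 := by simp
        _ ≤ ENNReal.ofReal (‖vec h z - s‖ ^ 2 / θ) := by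
            apply ENNReal.ofReal_le_ofReal
            rwa [one_le_div hθ]
    · have : {_x : Fin 0 → E d | θ ≤ ‖vec h z - s‖ ^ 2} = ∅ := by
        ext x; simp [hz]
      rw [this]; simp
  | succ T ih =>
    have hset : {x : Fin (T + 1) → E d | θ ≤ ‖vec h (runF (kstep h) s (T + 1) z x) - s‖ ^ 2} =
        {x | runF (kstep h) s (T + 1) z x ∈ {m : St d G | θ ≤ ‖vec h m - s‖ ^ 2}} := rfl
    rw [hset, measure_runF_succ (kstep h) (measurable_kstep h) s T z]
    set S : ℝ := ∑ k ∈ Finset.range T, a ^ k with hS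
    have hS0 : 0 ≤ S := Finset.sum_nonneg fun k _ => pow_nonneg ha0 k
    calc ∫⁻ ξ, (Measure.pi fun _ : Fin T => stdGaussian (E d))
            {x | runF (kstep h) s T (kstep h z ξ ⟪ξ, s⟫) x ∈ {m : St d G | θ ≤ ‖vec h m - s‖ ^ 2}}
            ∂(stdGaussian (E d))
        ≤ ∫⁻ ξ, (ENNReal.ofReal (a ^ T / θ) *
              ENNReal.ofReal (‖vec h (kstep h z ξ ⟪ξ, s⟫) - s‖ ^ 2) + ENNReal.ofReal (c * S / θ))
            ∂(stdGaussian (E d)) := by
          apply lintegral_mono
          intro ξ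
          refine (ih (kstep h z ξ ⟪ξ, s⟫)).trans (le_of_eq ?_)
          beta_reduce
          rw [← ENNReal.ofReal_mul (by positivity), ← ENNReal.ofReal_add (by positivity)
            (by positivity)]
          congr 1
          ring
      _ = ENNReal.ofReal (a ^ T / θ) *
            ∫⁻ ξ, ENNReal.ofReal (‖vec h (kstep h z ξ ⟪ξ, s⟫) - s‖ ^ 2) ∂(stdGaussian (E d)) +
              ENNReal.ofReal (c * S / θ) := by
          rw [lintegral_add_right _ measurable_const, lintegral_const_mul' _ _ ENNReal.ofReal_ne_top]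
          simp
      _ ≤ ENNReal.ofReal (a ^ T / θ) * ENNReal.ofReal (a * ‖vec h z - s‖ ^ 2 + c) +
              ENNReal.ofReal (c * S / θ) := by
          gcongr
          exact lintegral_one_step hd hh hG z s hs
      _ = ENNReal.ofReal ((a ^ (T + 1) * ‖vec h z - s‖ ^ 2 +
            c * ∑ k ∈ Finset.range (T + 1), a ^ k) / θ) := by
          rw [← ENNReal.ofReal_mul (by positivity), ← ENNReal.ofReal_add (by positivity)
            (by positivity), Finset.sum_range_succ, ← hS]
          congr 1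
          ring

end Vale.Agent.Lib.P309.K
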