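import Vale.Agent.Lib.P309.K.Defs

/-! # P309 K: measurability of the run -/

open MeasureTheory ProbabilityTheory
open scoped RealInnerProductSpace

namespace Vale.Agent.Lib.P309.K

/-- If `κ : Ω → State` is measurable into a countable type with measurable singletons and `g m` is
measurable for every `m`, then `ω ↦ g (κ ω) ω` is measurable. -/
lemma measurable_comp_countable {Ω State β : Type*} [MeasurableSpace Ω] [MeasurableSpace State]
    [MeasurableSpace β] [Countable State] [MeasurableSingletonClass State]
    {κ : Ω → State} (hκ : Measurable κ) {g : State → Ω → β} (hg : ∀ m, Measurable (g m)) :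
    Measurable (fun ω => g (κ ω) ω) := by
  have h1 : Measurable (fun q : State × Ω => g q.1 q.2) :=
    measurable_from_prod_countable_right hg
  exact h1.comp (hκ.prodMk measurable_id)

/-- Induction on `T`, for all `z`.  `runF step s (T+1) z x = runF step s T (κ (s, x)) (tail x)` with
`κ (s, x) = step z (x 0) ⟪x 0, s⟫` measurable into the countable discrete type `State`.
If `κ : Ω → State` is measurable and `g m : Ω → State` is measurable for every `m`, then
`ω ↦ g (κ ω) ω` is measurable: `measurable_from_prod_countable_right` (or `_left`) applied to
`(m, ω) ↦ g m ω`, composed with `ω ↦ (κ ω, ω)`. -/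
theorem measurable_runF {State : Type} [MeasurableSpace State] [Countable State]
    [MeasurableSingletonClass State] {d : ℕ} (step : State → E d → ℝ → State)
    (hstep : ∀ z, Measurable (fun p : E d × ℝ => step z p.1 p.2)) (T : ℕ) (z : State) :
    Measurable (fun p : E d × (Fin T → E d) => runF step p.1 T z p.2) := by
  induction T generalizing z with
  | zero => exact measurable_const
  | succ T ih =>
    have hx0 : Measurable (fun p : E d × (Fin (T + 1) → E d) => p.2 0) :=
      (measurable_pi_apply 0).comp measurable_snd
    have hinner : Measurable (fun p : E d × (Fin (T + 1) → E d) => ⟪p.2 0, p.1⟫) :=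
      hx0.inner measurable_fst
    have hκ : Measurable (fun p : E d × (Fin (T + 1) → E d) => step z (p.2 0) ⟪p.2 0, p.1⟫) :=
      (hstep z).comp (hx0.prodMk hinner)
    have htail : Measurable (fun p : E d × (Fin (T + 1) → E d) =>
        ((p.1, fun i : Fin T => p.2 i.succ) : E d × (Fin T → E d))) :=
      measurable_fst.prodMk (measurable_pi_lambda _ fun i =>
        (measurable_pi_apply i.succ).comp measurable_snd)
    have hg : ∀ m : State, Measurable (fun p : E d × (Fin (T + 1) → E d) =>
        runF step p.1 T m (fun i : Fin T => p.2 i.succ)) := fun m => (ih m).comp htail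
    exact measurable_comp_countable hκ hg

end Vale.Agent.Lib.P309.K
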