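import Vale.Agent.Lib.P309.K.Proj
import Vale.Agent.Lib.P309.K.GaussMean

/-! # P309 K: one step, in the mean -/

open MeasureTheory ProbabilityTheory
open scoped RealInnerProductSpace ENNReal

namespace Vale.Agent.Lib.P309.K

/-- `lintegral_mono` with `one_step_le` (and `ENNReal.ofReal_le_ofReal`); the majorant
`F ξ = (1 + 1/(2d)) (‖e‖^2 - ⟪ξ,e⟫^2/‖ξ‖^2) + c` is nonnegative (Cauchy-Schwarz, or because it
dominates a square) and integrable (`integrable_inner_sq_div`, constants), so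
`∫⁻ ofReal F = ofReal (∫ F)` (`ofReal_integral_eq_lintegral_ofReal`), and
`∫ F = (1 + 1/(2d)) (1 - 1/d) ‖e‖^2 + c ≤ (1 - 1/(2d)) ‖e‖^2 + c` by
`integral_inner_sq_div_norm_sq`. -/
theorem lintegral_one_step {h : ℝ} {d G : ℕ} (hd : 1 ≤ d) (hh : 0 < h) (hG : 2 ≤ G * h)
    (z : St d G) (s : E d) (hs : ‖s‖ = 1) :
    ∫⁻ ξ, ENNReal.ofReal (‖vec h (kstep h z ξ ⟪ξ, s⟫) - s‖ ^ 2) ∂(stdGaussian (E d)) ≤
      ENNReal.ofReal ((1 - 1 / (2 * (d : ℝ))) * ‖vec h z - s‖ ^ 2 +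
        (1 + 2 * (d : ℝ)) * (h / 2 * Real.sqrt d) ^ 2) := by
  set e : E d := vec h z - s with he
  set c : ℝ := (1 + 2 * (d : ℝ)) * (h / 2 * Real.sqrt d) ^ 2 with hc
  set a : ℝ := 1 + 1 / (2 * (d : ℝ)) with ha
  set F : E d → ℝ := fun ξ => a * (‖e‖ ^ 2 - ⟪ξ, e⟫ ^ 2 / ‖ξ‖ ^ 2) + c with hF
  have hle : ∀ ξ : E d, ‖vec h (kstep h z ξ ⟪ξ, s⟫) - s‖ ^ 2 ≤ F ξ :=
    fun ξ => one_step_le hd hh hG z ξ s hs
  have hnn : ∀ ξ : E d, 0 ≤ F ξ := fun ξ => le_trans (sq_nonneg _) (hle ξ)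
  have hq : Integrable (fun ξ : E d => ⟪ξ, e⟫ ^ 2 / ‖ξ‖ ^ 2) (stdGaussian (E d)) :=
    integrable_inner_sq_div e
  have hsub : Integrable (fun ξ : E d => ‖e‖ ^ 2 - ⟪ξ, e⟫ ^ 2 / ‖ξ‖ ^ 2) (stdGaussian (E d)) :=
    (integrable_const _).sub hq
  have hint : Integrable F (stdGaussian (E d)) :=
    (hsub.const_mul a).add (integrable_const c)
  have hval : ∫ ξ, F ξ ∂(stdGaussian (E d)) = a * (‖e‖ ^ 2 - ‖e‖ ^ 2 / d) + c := by
    simp only [hF]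
    rw [integral_add (hsub.const_mul a) (integrable_const c), integral_const_mul,
      integral_sub (integrable_const _) hq, integral_inner_sq_div_norm_sq hd e]
    simp
  calc ∫⁻ ξ, ENNReal.ofReal (‖vec h (kstep h z ξ ⟪ξ, s⟫) - s‖ ^ 2) ∂(stdGaussian (E d))
      ≤ ∫⁻ ξ, ENNReal.ofReal (F ξ) ∂(stdGaussian (E d)) :=
        lintegral_mono (fun ξ => ENNReal.ofReal_le_ofReal (hle ξ))
    _ = ENNReal.ofReal (∫ ξ, F ξ ∂(stdGaussian (E d))) :=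
        (ofReal_integral_eq_lintegral_ofReal hint (Filter.Eventually.of_forall hnn)).symm
    _ ≤ ENNReal.ofReal ((1 - 1 / (2 * (d : ℝ))) * ‖e‖ ^ 2 + c) := by
        apply ENNReal.ofReal_le_ofReal
        rw [hval]
        have hd0 : (0 : ℝ) < d := by exact_mod_cast hd
        have hkey : a * (‖e‖ ^ 2 - ‖e‖ ^ 2 / d) =
            (1 - 1 / (2 * (d : ℝ))) * ‖e‖ ^ 2 - ‖e‖ ^ 2 / (2 * (d : ℝ) ^ 2) := by
          rw [ha]; field_simp; ring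
        have hpos : 0 ≤ ‖e‖ ^ 2 / (2 * (d : ℝ) ^ 2) := by positivity
        linarith

end Vale.Agent.Lib.P309.K
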