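import Vale.Agent.Lib.P309.K.RoundVec

/-! # P309 K: one step, pointwise -/

open scoped RealInnerProductSpace

namespace Vale.Agent.Lib.P309.K

/-- `kupd v ξ ⟪ξ, s⟫ - s = e - (⟪ξ, e⟫ / ‖ξ‖ ^ 2) • ξ` with `e = v - s`; expand with
`norm_sub_sq_real`; the case `ξ = 0` is trivial (division by zero is zero). -/
theorem norm_kupd_sub_sq {d : ℕ} (v ξ s : E d) :
    ‖kupd v ξ ⟪ξ, s⟫ - s‖ ^ 2 = ‖v - s‖ ^ 2 - ⟪ξ, v - s⟫ ^ 2 / ‖ξ‖ ^ 2 := by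
  have hrew : kupd v ξ ⟪ξ, s⟫ - s = (v - s) - (⟪ξ, v - s⟫ / ‖ξ‖ ^ 2) • ξ := by
    unfold kupd
    rw [inner_sub_right]
    have : (⟪ξ, s⟫ - ⟪ξ, v⟫) / ‖ξ‖ ^ 2 = -((⟪ξ, v⟫ - ⟪ξ, s⟫) / ‖ξ‖ ^ 2) := by ring
    rw [this, neg_smul]
    abel
  rw [hrew, norm_sub_sq_real, inner_smul_right, norm_smul, real_inner_comm ξ (v - s)]
  by_cases hξ : ξ = 0
  · subst hξ
    simp
  · have hn : ‖ξ‖ ≠ 0 := norm_ne_zero_iff.2 hξ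
    rw [mul_pow, Real.norm_eq_abs, sq_abs]
    field_simp
    ring

/-- `norm_vec_round_sub_le` with `u = kupd ..` gives `‖..‖ ≤ A + η`, `A ^ 2` is given by
`norm_kupd_sub_sq`, and `(A + η) ^ 2 ≤ (1 + β) A ^ 2 + (1 + 1 / β) η ^ 2` with `β = 1 / (2 d)`
(`2 A η ≤ β A ^ 2 + η ^ 2 / β`). -/
theorem one_step_le {h : ℝ} {d G : ℕ} (hd : 1 ≤ d) (hh : 0 < h) (hG : 2 ≤ G * h) (z : St d G)
    (ξ s : E d) (hs : ‖s‖ = 1) :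
    ‖vec h (kstep h z ξ ⟪ξ, s⟫) - s‖ ^ 2 ≤
      (1 + 1 / (2 * (d : ℝ))) * (‖vec h z - s‖ ^ 2 - ⟪ξ, vec h z - s⟫ ^ 2 / ‖ξ‖ ^ 2) +
        (1 + 2 * (d : ℝ)) * (h / 2 * Real.sqrt d) ^ 2 := by
  rw [← norm_kupd_sub_sq]
  have h1 := norm_vec_round_sub_le (G := G) hh hG (kupd (vec h z) ξ ⟪ξ, s⟫) s hs
  have h1' : ‖vec h (kstep h z ξ ⟪ξ, s⟫) - s‖ ≤
      ‖kupd (vec h z) ξ ⟪ξ, s⟫ - s‖ + h / 2 * Real.sqrt d := h1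
  set A : ℝ := ‖kupd (vec h z) ξ ⟪ξ, s⟫ - s‖ with hA
  set η : ℝ := h / 2 * Real.sqrt d with hη
  set B : ℝ := ‖vec h (kstep h z ξ ⟪ξ, s⟫) - s‖ with hB
  have hB0 : 0 ≤ B := norm_nonneg _
  have hD : (0 : ℝ) < d := by exact_mod_cast hd
  have hsq : B ^ 2 ≤ (A + η) ^ 2 := pow_le_pow_left₀ hB0 h1' 2
  have hkey : (A + η) ^ 2 ≤ (1 + 1 / (2 * (d : ℝ))) * A ^ 2 + (1 + 2 * (d : ℝ)) * η ^ 2 := by
    have hs2 : 0 ≤ (A - 2 * (d : ℝ) * η) ^ 2 / (2 * (d : ℝ)) := by positivity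
    have hexp : (1 + 1 / (2 * (d : ℝ))) * A ^ 2 + (1 + 2 * (d : ℝ)) * η ^ 2 - (A + η) ^ 2
        = (A - 2 * (d : ℝ) * η) ^ 2 / (2 * (d : ℝ)) := by
      field_simp
      ring
    linarith
  exact hsq.trans hkey

end Vale.Agent.Lib.P309.K
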