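import Vale.Agent.Lib.P309.K.Defs

/-! # P309 K: rounding to the grid -/

open scoped RealInnerProductSpace

namespace Vale.Agent.Lib.P309.K

/-- Put `c = max (-1) (min 1 u)` (in `[-1, 1]`, and `|c - a| ≤ |u - a|` because `|a| ≤ 1`) and
`t = (c + 1) / h + 1 / 2 > 0`, `j = ⌊t⌋₊`: `t - 1 < j ≤ t` (`Nat.floor_le`, `Nat.lt_floor_add_one`).
`j ≤ t ≤ 2 / h + 1 / 2 ≤ G + 1 / 2`, so `j ≤ G` and the `min` is `j`.
`val = j h - 1`, `|j h - 1 - c| = |j - (c + 1) / h| h ≤ h / 2`. -/
theorem abs_val_rnd_sub_le {h : ℝ} {G : ℕ} (hh : 0 < h) (hG : 2 ≤ G * h) (u a : ℝ)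
    (ha : |a| ≤ 1) : |val h (rnd h G u) - a| ≤ |u - a| + h / 2 := by
  set c := max (-1) (min 1 u) with hc
  have hc1 : -1 ≤ c := le_max_left _ _
  have hc2 : c ≤ 1 := max_le (by norm_num) (min_le_left _ _)
  obtain ⟨ha1, ha2⟩ := abs_le.1 ha
  have hca : |c - a| ≤ |u - a| := by
    rcases le_total u (-1) with h1 | h1
    · have h2 : c = -1 := by rw [hc, min_eq_right (by linarith), max_eq_left h1]
      rw [h2, abs_of_nonpos (by linarith), abs_of_nonpos (by linarith)]
      linarith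
    · rcases le_total u 1 with h2 | h2
      · have h3 : c = u := by rw [hc, min_eq_right h2, max_eq_right h1]
        rw [h3]
      · have h3 : c = 1 := by rw [hc, min_eq_left h2, max_eq_right (by norm_num)]
        rw [h3, abs_of_nonneg (by linarith), abs_of_nonneg (by linarith)]
        linarith
  set t := (c + 1) / h + 1 / 2 with ht
  have ht0 : 0 ≤ t := by
    have : 0 ≤ (c + 1) / h := div_nonneg (by linarith) hh.le
    linarith
  set j := ⌊t⌋₊ with hj
  have hj1 : (j : ℝ) ≤ t := Nat.floor_le ht0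
  have hj2 : t < j + 1 := Nat.lt_floor_add_one t
  have htG : t ≤ G + 1 / 2 := by
    have : (c + 1) / h ≤ G := by
      rw [div_le_iff₀ hh]
      linarith
    linarith
  have hjG : j ≤ G := by
    have h4 : (j : ℝ) < (G : ℝ) + 1 := by linarith
    have h5 : j < G + 1 := by exact_mod_cast h4
    omega
  have hval : val h (rnd h G u) = j * h - 1 := by
    simp only [val, rnd]
    rw [← hc, ← ht, ← hj, min_eq_right hjG]
  have h3 : |(j : ℝ) * h - 1 - c| ≤ h / 2 := by
    have e : (j : ℝ) * h - 1 - c = ((j : ℝ) - t + 1 / 2) * h := by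
      rw [ht]
      field_simp
      ring
    rw [e, abs_mul, abs_of_pos hh]
    have h6 : |(j : ℝ) - t + 1 / 2| ≤ 1 / 2 := abs_le.2 ⟨by linarith, by linarith⟩
    nlinarith
  calc |val h (rnd h G u) - a| = |((j : ℝ) * h - 1 - c) + (c - a)| := by
        rw [hval]
        ring_nf
    _ ≤ |(j : ℝ) * h - 1 - c| + |c - a| := abs_add_le _ _
    _ ≤ |u - a| + h / 2 := by linarith

end Vale.Agent.Lib.P309.K
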