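import Vale.Agent.Lib.P309.K.Round

/-! # P309 K: rounding a vector to the grid -/

open scoped RealInnerProductSpace

namespace Vale.Agent.Lib.P309.K

/-- Coordinatewise `|A i| ≤ |B i| + h / 2` by `abs_val_rnd_sub_le` (`|s i| ≤ ‖s‖ = 1`:
`PiLp.norm_apply_le` or `EuclideanSpace.norm_sq_eq`).  Then
`‖A‖ ≤ ‖toLp (fun i => |B i| + h / 2)‖ ≤ ‖toLp |B|‖ + ‖toLp (fun _ => h / 2)‖ = ‖B‖ + h / 2 * √d`
(`EuclideanSpace.norm_eq`, `Real.sqrt_le_sqrt`, `norm_add_le`). -/
theorem norm_vec_round_sub_le {h : ℝ} {d G : ℕ} (hh : 0 < h) (hG : 2 ≤ G * h) (u s : E d)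
    (hs : ‖s‖ = 1) :
    ‖vec h (fun i => rnd h G (u i)) - s‖ ≤ ‖u - s‖ + h / 2 * Real.sqrt d := by
  have hsi : ∀ i, |s i| ≤ 1 := by
    intro i
    have := PiLp.norm_apply_le s i
    rwa [hs, Real.norm_eq_abs] at this
  set w : E d := WithLp.toLp 2 fun i => |u i - s i| with hw
  set c : E d := WithLp.toLp 2 fun _ => h / 2 with hc
  have h1 : ‖vec h (fun i => rnd h G (u i)) - s‖ ≤ ‖w + c‖ := by
    rw [EuclideanSpace.norm_eq, EuclideanSpace.norm_eq]
    apply Real.sqrt_le_sqrt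
    apply Finset.sum_le_sum
    intro i _
    have h2 := abs_val_rnd_sub_le hh hG (u i) (s i) (hsi i)
    have e1 : (vec h (fun i => rnd h G (u i)) - s) i = val h (rnd h G (u i)) - s i := rfl
    have e2 : (w + c) i = |u i - s i| + h / 2 := rfl
    rw [e1, e2, Real.norm_eq_abs, Real.norm_eq_abs, sq_abs, sq_abs]
    have h3 : 0 ≤ |u i - s i| + h / 2 := by positivity
    exact sq_le_sq' (by linarith [neg_abs_le (val h (rnd h G (u i)) - s i)])
      (le_trans (le_abs_self _) h2)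
  have h2 : ‖w‖ = ‖u - s‖ := by
    rw [EuclideanSpace.norm_eq, EuclideanSpace.norm_eq]
    congr 1
    apply Finset.sum_congr rfl
    intro i _
    have e1 : w i = |u i - s i| := rfl
    have e2 : (u - s) i = u i - s i := rfl
    rw [e1, e2, Real.norm_eq_abs, Real.norm_eq_abs, abs_abs]
  have h3 : ‖c‖ = h / 2 * Real.sqrt d := by
    rw [EuclideanSpace.norm_eq]
    have e1 : ∀ i : Fin d, ‖c i‖ ^ 2 = (h / 2) ^ 2 := by
      intro i
      have : c i = h / 2 := rfl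
      rw [this, Real.norm_eq_abs, sq_abs]
    simp only [e1, Finset.sum_const, Finset.card_univ, Fintype.card_fin, nsmul_eq_mul]
    rw [mul_comm, Real.sqrt_mul (by positivity), Real.sqrt_sq (by positivity)]
  calc ‖vec h (fun i => rnd h G (u i)) - s‖ ≤ ‖w + c‖ := h1
    _ ≤ ‖w‖ + ‖c‖ := norm_add_le _ _
    _ = ‖u - s‖ + h / 2 * Real.sqrt d := by rw [h2, h3]

end Vale.Agent.Lib.P309.K
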